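import Vale.Agent.P233.Gig.IfB
import Vale.Agent.P233.H66.Time3

/-! P233, part B: continuity of weighted integrals of Hilbert space valued fields. -/

set_option linter.all false

open MeasureTheory Filter Topology Set
open scoped ENNReal NNReal InnerProductSpace

universe u v

namespace Vale.Agent.P233.H329

open Vale.Agent.P233

variable {M : Type u} [MeasurableSpace M] {m : Measure M} {C : Calc m}
variable {E : Type v} [NormedAddCommGroup E] [InnerProductSpace ℝ E]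

theorem ipE_comm (f g : M → E) : ipE m f g = ipE m g f := by
  have h : (fun x => ⟪f x, g x⟫_ℝ) = fun x => ⟪g x, f x⟫_ℝ := by
    funext x; rw [real_inner_comm]
  unfold ipE
  rw [h]

theorem eLpNorm_ipE_le {f g : M → E} (hf : MemLp f 2 m) (hg : MemLp g 2 m) :
    eLpNorm (ipE m f g) 1 m ≤ eLpNorm f 2 m * eLpNorm g 2 m := by
  rw [eLpNorm_congr_ae (ipE_ae hf.1 hg.1)]
  have := eLpNorm_le_eLpNorm_mul_eLpNorm'_of_norm (μ := m) (p := 2) (q := 2) (r := 1) hf.1 hg.1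
    (fun a b => ⟪a, b⟫_ℝ) 1 (Eventually.of_forall fun x => by
      simpa using norm_inner_le_norm (𝕜 := ℝ) (f x) (g x))
  simpa using this

theorem intabs_eq (f : M →ₘ[m] ℝ) (hf : MemLp f 1 m) :
    ∫ x, |f x| ∂m = (eLpNorm f 1 m).toReal := by
  rw [eLpNorm_one_eq_lintegral_enorm, ← ofReal_integral_norm_eq_lintegral_enorm (int_of_mem hf),
    ENNReal.toReal_ofReal (integral_nonneg fun x => norm_nonneg _)]
  rfl

/-- limits of inner products of fields that converge in `L²` -/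
theorem T1_ipE {F G : ℕ → M → E} {f g : M → E} (hF : ∀ n, MemLp (F n) 2 m)
    (hG : ∀ n, MemLp (G n) 2 m) (hf : MemLp f 2 m) (hg : MemLp g 2 m)
    (h1 : Tendsto (fun n => eLpNorm (fun x => F n x - f x) 2 m) atTop (𝓝 0))
    (h2 : Tendsto (fun n => eLpNorm (fun x => G n x - g x) 2 m) atTop (𝓝 0)) :
    T1 (fun n => ipE m (F n) (G n)) (ipE m f g) := by
  have k1 : ∀ n, MemLp (fun x => F n x - f x) 2 m := fun n => (hF n).sub hf
  have k2 : ∀ n, MemLp (fun x => G n x - g x) 2 m := fun n => (hG n).sub hg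
  refine ⟨fun n => ipE_mem (hF n) (hG n), ipE_mem hf hg, ?_⟩
  set a : ℕ → ℝ≥0∞ := fun n => eLpNorm (fun x => F n x - f x) 2 m with ha
  set b : ℕ → ℝ≥0∞ := fun n => eLpNorm (fun x => G n x - g x) 2 m with hb
  have key : ∀ n, eLpNorm (ipE m (F n) (G n) - ipE m f g : M →ₘ[m] ℝ) 1 m ≤
      a n * b n + a n * eLpNorm g 2 m + eLpNorm f 2 m * b n := by
    intro n
    have e1 : (ipE m (F n) (G n) - ipE m f g : M →ₘ[m] ℝ) =
        ipE m (fun x => F n x - f x) (fun x => G n x - g x) + ipE m (fun x => F n x - f x) g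
          + ipE m f (fun x => G n x - g x) := by
      rw [eq_iff_ae]
      filter_upwards [ipE_ae (hF n).1 (hG n).1, ipE_ae hf.1 hg.1, ipE_ae (k1 n).1 (k2 n).1,
        ipE_ae (k1 n).1 hg.1, ipE_ae hf.1 (k2 n).1, sub_ae (ipE m (F n) (G n)) (ipE m f g),
        add_ae (ipE m (fun x => F n x - f x) (fun x => G n x - g x)
          + ipE m (fun x => F n x - f x) g) (ipE m f (fun x => G n x - g x)),
        add_ae (ipE m (fun x => F n x - f x) (fun x => G n x - g x))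
          (ipE m (fun x => F n x - f x) g)] with x b1 b2 b3 b4 b5 b6 b7 b8
      rw [b6, b7, b8, b1, b2, b3, b4, b5]
      simp only [inner_sub_left, inner_sub_right]
      ring
    rw [e1]
    have m1 := ipE_mem (k1 n) (k2 n)
    have m2 := ipE_mem (k1 n) hg
    have m3 := ipE_mem hf (k2 n)
    calc eLpNorm (ipE m (fun x => F n x - f x) (fun x => G n x - g x)
          + ipE m (fun x => F n x - f x) g + ipE m f (fun x => G n x - g x) : M →ₘ[m] ℝ) 1 m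
        ≤ eLpNorm (ipE m (fun x => F n x - f x) (fun x => G n x - g x)
          + ipE m (fun x => F n x - f x) g : M →ₘ[m] ℝ) 1 m
          + eLpNorm (ipE m f (fun x => G n x - g x)) 1 m := by
          rw [eLpNorm_congr_ae (AEEqFun.coeFn_add _ _)]
          exact eLpNorm_add_le (mem_add m1 m2).1 m3.1 le_rfl
      _ ≤ (eLpNorm (ipE m (fun x => F n x - f x) (fun x => G n x - g x)) 1 m
          + eLpNorm (ipE m (fun x => F n x - f x) g) 1 m)
          + eLpNorm (ipE m f (fun x => G n x - g x)) 1 m := by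
          refine add_le_add_left ?_ _
          rw [eLpNorm_congr_ae (AEEqFun.coeFn_add _ _)]
          exact eLpNorm_add_le m1.1 m2.1 le_rfl
      _ ≤ a n * b n + a n * eLpNorm g 2 m + eLpNorm f 2 m * b n :=
          add_le_add (add_le_add (eLpNorm_ipE_le (k1 n) (k2 n)) (eLpNorm_ipE_le (k1 n) hg))
            (eLpNorm_ipE_le hf (k2 n))
  have hlim : Tendsto (fun n => a n * b n + a n * eLpNorm g 2 m + eLpNorm f 2 m * b n)
      atTop (𝓝 0) := by
    have t1 : Tendsto (fun n => a n * b n) atTop (𝓝 (0 * 0)) :=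
      ENNReal.Tendsto.mul h1 (Or.inr ENNReal.zero_ne_top) h2 (Or.inr ENNReal.zero_ne_top)
    have t2 : Tendsto (fun n => a n * eLpNorm g 2 m) atTop (𝓝 (0 * eLpNorm g 2 m)) :=
      ENNReal.Tendsto.mul_const h1 (Or.inr hg.2.ne)
    have t3 : Tendsto (fun n => eLpNorm f 2 m * b n) atTop (𝓝 (eLpNorm f 2 m * 0)) :=
      ENNReal.Tendsto.const_mul h2 (Or.inr hf.2.ne)
    simpa using (t1.add t2).add t3
  have hE : Tendsto (fun n => eLpNorm (ipE m (F n) (G n) - ipE m f g : M →ₘ[m] ℝ) 1 m)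
      atTop (𝓝 0) :=
    tendsto_of_tendsto_of_tendsto_of_le_of_le tendsto_const_nhds hlim (fun n => bot_le) key
  have e2 : ∀ n, ∫ x, |(ipE m (F n) (G n) - ipE m f g : M →ₘ[m] ℝ) x| ∂m
      = (eLpNorm (ipE m (F n) (G n) - ipE m f g : M →ₘ[m] ℝ) 1 m).toReal := fun n =>
    intabs_eq _ (mem_sub (ipE_mem (hF n) (hG n)) (ipE_mem hf hg))
  simp only [e2]
  have := (ENNReal.tendsto_toReal ENNReal.zero_ne_top).comp hE
  simpa [Function.comp_def] using this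

/-- continuity within a set by sequences in the set -/
theorem cwa_of_seq {S : Set ℝ} {t : ℝ} (ht : t ∈ S) {β : Type*} [TopologicalSpace β] {F : ℝ → β}
    (h : ∀ r : ℕ → ℝ, (∀ n, r n ∈ S) → Tendsto r atTop (𝓝 t) →
      Tendsto (fun n => F (r n)) atTop (𝓝 (F t))) : ContinuousWithinAt F S t := by
  refine tendsto_of_seq_tendsto fun r hr => ?_
  obtain ⟨h1, h2⟩ := tendsto_nhdsWithin_iff.1 hr
  obtain ⟨N, hN⟩ := eventually_atTop.1 h2
  have h3 := h (fun n => r (n + N)) (fun n => hN _ (by omega)) (h1.comp (tendsto_add_atTop_nat N))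
  exact (tendsto_add_atTop_iff_nat N).1 h3

/-- continuity of `t ↦ ∫ ρ_t ⟪F_t, G_t⟫` -/
theorem cont_ipE {S : Set ℝ} {ρ : ℝ → M →ₘ[m] ℝ} {F G : ℝ → M → E}
    (hb : ∃ K : ℝ, ∀ t ∈ S, ∀ᵐ x ∂m, |ρ t x| ≤ K)
    (hρm : ∀ s ∈ S, ∀ t ∈ S, MemLp (ρ s - ρ t : M →ₘ[m] ℝ) 2 m)
    (hρ : ∀ t ∈ S, Tendsto (fun s => I ((ρ s - ρ t) ^ 2)) (𝓝[S] t) (𝓝 0))
    (hF : ∀ t ∈ S, MemLp (F t) 2 m) (hG : ∀ t ∈ S, MemLp (G t) 2 m)
    (h1 : ∀ t ∈ S, Tendsto (fun s => eLpNorm (fun x => F s x - F t x) 2 m) (𝓝[S] t) (𝓝 0))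
    (h2 : ∀ t ∈ S, Tendsto (fun s => eLpNorm (fun x => G s x - G t x) 2 m) (𝓝[S] t) (𝓝 0)) :
    ContinuousOn (fun t => I (ρ t * ipE m (F t) (G t))) S := by
  obtain ⟨K, hK⟩ := hb
  intro t ht
  refine cwa_of_seq ht fun r hr hrt => ?_
  have hrS : Tendsto r atTop (𝓝[S] t) :=
    tendsto_nhdsWithin_iff.2 ⟨hrt, Eventually.of_forall hr⟩
  have a1 : Tm (fun n => ρ (r n)) (ρ t) :=
    Tm.of_L2 ⟨K, fun n => hK _ (hr n)⟩ (fun n => hρm _ (hr n) _ ht) ((hρ t ht).comp hrS)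
  have a2 : T1 (fun n => ipE m (F (r n)) (G (r n))) (ipE m (F t) (G t)) :=
    T1_ipE (fun n => hF _ (hr n)) (fun n => hG _ (hr n)) (hF t ht) (hG t ht)
      ((h1 t ht).comp hrS) ((h2 t ht).comp hrS)
  exact (a1.mul1 a2).I_lim

/-! ### regular pairs -/

theorem derW_mono {J J' : Set ℝ} {f : ℝ → M →ₘ[m] ℝ} {f' : M →ₘ[m] ℝ} {t : ℝ}
    (h : C.DerW J f f' t) (hJ : J' ⊆ J) : C.DerW J' f f' t :=
  h.mono_left (nhdsWithin_mono _ (Set.diff_subset_diff_left hJ))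

theorem ctW_mono {J J' : Set ℝ} {f : ℝ → M →ₘ[m] ℝ} {t : ℝ}
    (h : C.CtW J f t) (hJ : J' ⊆ J) : C.CtW J' f t :=
  h.mono_left (nhdsWithin_mono _ hJ)

theorem reg_mono {ε a b a' b' : ℝ} {φ u : ℝ → M →ₘ[m] ℝ} (h : C.Reg ε a b φ u) (ha : a ≤ a')
    (hab : a' < b') (hb : b' ≤ b) : C.Reg ε a' b' φ u := by
  have hs : Icc a' b' ⊆ Icc a b := Icc_subset_Icc ha hb
  refine ⟨h.hε, hab, fun t ht => h.φ_mem t (hs ht), fun t ht => h.u_mem t (hs ht),
    fun t ht => derW_mono (h.dφ t (hs ht)) hs, fun t ht => derW_mono (h.du t (hs ht)) hs,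
    fun t ht => ctW_mono (h.cφ t (hs ht)) hs, fun t ht => ctW_mono (h.cu t (hs ht)) hs, ?_⟩
  obtain ⟨B, hB⟩ := h.bdd
  exact ⟨B, fun t ht => hB t (hs ht)⟩

theorem DW_of_derW {J : Set ℝ} {f : ℝ → M →ₘ[m] ℝ} {f' : M →ₘ[m] ℝ} {t : ℝ}
    (h : C.DerW J f f' t) (hm : ∀ r ∈ J, f r - f t ∈ C.W) (hm' : f' ∈ C.W) : C.DW f f' J t :=
  ⟨hm, hm', h⟩

end Vale.Agent.P233.H329
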