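import Vale.Agent.P233.Gig.IfA
import Vale.Agent.P233.H329.Cont

/-! P233, assembly of part B, step 1: the bounds of part A give the hypotheses `LvB` of part B. -/

set_option linter.all false

open MeasureTheory Filter Topology Set
open scoped ENNReal NNReal InnerProductSpace

universe u v

namespace Vale.Agent.P233.H329

open Vale.Agent.P233

section abstract

variable {M : Type u} [MeasurableSpace M] {m : Measure M} {C : Calc m}

theorem Bd.mono {ε s Λ Λ' : ℝ} {φ u : ℝ → M →ₘ[m] ℝ} (h : Bd C ε s Λ φ u) (hε : 0 < ε)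
    (hΛ : Λ ≤ Λ') : Bd C ε s Λ' φ u := by
  refine ⟨fun t ht => ?_, fun t ht => ?_, fun t ht => ?_, fun t ht => ?_, fun t ht => ?_,
    fun t ht => ?_, fun t ht => (h.l2 t ht).trans hΛ, fun t ht => (h.en t ht).trans hΛ⟩
  · filter_upwards [h.gu t ht] with x hx using hx.trans hΛ
  · filter_upwards [h.gφ t ht] with x hx using hx.trans hΛ
  · filter_upwards [h.lu t ht] with x hx using hx.trans hΛ
  · filter_upwards [h.lφ t ht] with x hx
    refine le_trans ?_ hx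
    have := div_le_div_of_nonneg_right hΛ hε.le
    linarith
  · filter_upwards [h.lφ' t ht] with x hx
    refine le_trans ?_ hx
    have h1 : 0 < 1 - t := by linarith [ht.2]
    have := div_le_div_of_nonneg_right hΛ h1.le
    linarith
  · filter_upwards [h.rho t ht] with x hx using hx.trans hΛ

/-- the constant of part B -/
noncomputable def ΛB (K N C₀ R D DF s : ℝ) (D' DF' : ℝ → ℝ) : ℝ :=
  D ^ 2 + DF ^ 2 + (N / s + (1 + |K|) * |K| * C₀) + |DF| + N + |D' s| + |DF' s|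
    + s ^ (-N) * Real.exp ((1 + |K|) * |K| * C₀) * R

theorem Bd_of {K N ε C₀ R D DF s : ℝ} {D' DF' : ℝ → ℝ} {l : M →ₘ[m] ℝ}
    {φ u : ℝ → M →ₘ[m] ℝ} (hs : 0 < s) (hs1 : s < 1) (hε : 0 < ε) (hε1 : ε ≤ 1) (hN : 0 < N)
    (hC0 : 0 < C₀) (hR : 1 ≤ R) (hU : PA.LevU C K N ε C₀ D D' u)
    (hF : PA.LevF C K N ε C₀ R DF DF' l φ u) :
    Bd C ε s (ΛB K N C₀ R D DF s D' DF') φ u := by
  have p1 : 0 ≤ D ^ 2 := sq_nonneg _
  have p2 : 0 ≤ DF ^ 2 := sq_nonneg _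
  have p3 : 0 ≤ N / s := (div_pos hN hs).le
  have pc : 0 ≤ (1 + |K|) * |K| * C₀ := by positivity
  have p4 : 0 ≤ |DF| := abs_nonneg _
  have p5 : 0 ≤ |D' s| := abs_nonneg _
  have p6 : 0 ≤ |DF' s| := abs_nonneg _
  have p7 : 0 ≤ s ^ (-N) * Real.exp ((1 + |K|) * |K| * C₀) * R := by positivity
  have hc1 : PA.c1 K ε C₀ ≤ (1 + |K|) * |K| * C₀ := by
    unfold PA.c1
    have : ε * |K| ≤ |K| := by nlinarith [abs_nonneg K]
    have h2 : (1 + ε * |K|) * (|K| * C₀) ≤ (1 + |K|) * (|K| * C₀) :=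
      mul_le_mul_of_nonneg_right (by linarith) (by positivity)
    linarith [mul_assoc (1 + ε * |K|) |K| C₀, mul_assoc (1 + |K|) |K| C₀]
  have hc0 : 0 ≤ PA.c1 K ε C₀ := by
    unfold PA.c1
    positivity
  have hsub : ∀ t ∈ Icc s 1, t ∈ Icc (0 : ℝ) 1 := fun t ht => ⟨hs.le.trans ht.1, ht.2⟩
  have hsub2 : ∀ t ∈ Icc s 1, t ∈ Ioc (0 : ℝ) 1 := fun t ht => ⟨hs.trans_le ht.1, ht.2⟩
  refine ⟨fun t ht => ?_, fun t ht => ?_, fun t ht => ?_, fun t ht => ?_, fun t ht => ?_,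
    fun t ht => ?_, fun t ht => ?_, fun t ht => ?_⟩
  · filter_upwards [hU.lip t (hsub t ht)] with x hx
    unfold ΛB; linarith
  · filter_upwards [hF.lip t (hsub t ht)] with x hx
    unfold ΛB; linarith
  · filter_upwards [hU.lap t (hsub2 t ht)] with x hx
    have h1 : N / t ≤ N / s := div_le_div_of_nonneg_left hN.le hs ht.1
    unfold ΛB; linarith
  · filter_upwards [hF.lapε t (hsub t ht)] with x hx
    have h1 : |DF| ≤ ΛB K N C₀ R D DF s D' DF' := by unfold ΛB; linarith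
    have h2 : |C.lap (φ t) x| ≤ ΛB K N C₀ R D DF s D' DF' / ε := by
      rw [le_div_iff₀ hε, mul_comm]
      exact hx.trans ((le_abs_self _).trans h1)
    exact neg_le_of_abs_le h2
  · filter_upwards [hF.lap t ⟨hs.le.trans ht.1, ht.2⟩] with x hx
    refine le_trans ?_ hx
    have h1 : 0 < 1 - t := by linarith [ht.2]
    have h2 : N + |DF| ≤ ΛB K N C₀ R D DF s D' DF' := by unfold ΛB; linarith
    have h3 : (N + |DF|) / (1 - t) ≤ ΛB K N C₀ R D DF s D' DF' / (1 - t) :=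
      div_le_div_of_nonneg_right h2 h1.le
    have h4 : DF ≤ |DF| / (1 - t) := by
      rw [le_div_iff₀ h1]
      have ht0 : 0 < t := hs.trans_le ht.1
      nlinarith [le_abs_self DF, abs_nonneg DF]
    rw [add_div] at h3
    linarith
  · filter_upwards [hF.dens t (hsub2 t ht)] with x hx
    refine hx.trans ?_
    have h1 : t ^ (-N) ≤ s ^ (-N) :=
      Real.rpow_le_rpow_of_nonpos hs ht.1 (by linarith)
    have h2 : Real.exp (PA.c1 K ε C₀ * (1 - t)) ≤ Real.exp ((1 + |K|) * |K| * C₀) := by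
      refine Real.exp_le_exp.2 (le_trans ?_ hc1)
      have : 0 < t := hs.trans_le ht.1
      nlinarith
    have h3 : t ^ (-N) * Real.exp (PA.c1 K ε C₀ * (1 - t)) * R
        ≤ s ^ (-N) * Real.exp ((1 + |K|) * |K| * C₀) * R := by
      refine mul_le_mul_of_nonneg_right (mul_le_mul h1 h2 (Real.exp_pos _).le ?_) (by linarith)
      positivity
    unfold ΛB; linarith
  · refine (hF.rho2 s ⟨hs, hs1.le⟩ t ht).trans ?_
    unfold ΛB; linarith [le_abs_self (DF' s)]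
  · refine (hU.en s ⟨hs, hs1.le⟩ t ht).trans ?_
    unfold ΛB; linarith [le_abs_self (D' s)]

end abstract

section metric

variable {M : Type u} [MetricSpace M] [MeasurableSpace M] {m : Measure M}

theorem en_pos (n : ℕ) : 0 < PA.en n := by unfold PA.en; positivity

theorem en_le (n : ℕ) : PA.en n ≤ 1 := by
  unfold PA.en
  exact inv_le_one_of_one_le₀ (by linarith [(Nat.cast_nonneg n : (0 : ℝ) ≤ n)])

theorem en_tendsto : Tendsto PA.en atTop (𝓝[>] 0) := by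
  refine tendsto_nhdsWithin_iff.2 ⟨?_, Eventually.of_forall fun n => en_pos n⟩
  unfold PA.en
  simpa [one_div] using tendsto_one_div_add_atTop_nhds_zero_nat (𝕜 := ℝ)

theorem exists_LvB [SigmaFinite m] (h0 : Blk_B0.{u}) {K N : ℝ} (hN : 0 < N)
    (hC : IsGamma (sob m)) (hB : (sob m).BEi K) {P : ℝ → (M →ₘ[m] ℝ) → (M →ₘ[m] ℝ)}
    (hP : Heat (sob m) K P) {p : M} {s₀ C₀ : ℝ} (hC0 : 0 < C₀) {u : ℕ → ℝ → M →ₘ[m] ℝ}
    {φ : (M →ₘ[m] ℝ) → ℕ → ℝ → M →ₘ[m] ℝ} (hA : PA.OutA m K N P p s₀ C₀ u φ)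
    {l : M →ₘ[m] ℝ} (hl : l ∈ (sob m).TestI) {s : ℝ} (hs : s ∈ Ioo (0 : ℝ) 1) :
    ∃ Λ : ℝ, ∀ᶠ n in atTop, (sob m).Reg (PA.en n) 0 1 (φ l n) (u n) ∧
      LvB (sob m) (PA.en n) s Λ l (φ l n) (u n) := by
  obtain ⟨B1, hB1⟩ := mem_top_iff.1 (hC.test_A hl.1).2
  obtain ⟨B2, hB2⟩ := mem_top_iff.1 (hC.test_Γ_top hl.1)
  obtain ⟨B3, hB3⟩ := mem_top_iff.1 hl.2
  have hR : (1 : ℝ) ≤ Real.exp |B1| := Real.one_le_exp (abs_nonneg _)
  obtain ⟨D, D', hU⟩ := hA.levU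
  obtain ⟨DF, DF', hF⟩ := hA.levF l hl (Real.exp |B1|) hR (by
    rw [Real.log_exp]
    filter_upwards [hB1] with x hx
    exact (le_abs_self _).trans (hx.trans (le_abs_self _)))
  set Λ₀ := ΛB K N C₀ (Real.exp |B1|) D DF s D' DF' with hΛ₀
  set Λ₁ := |Λ₀| + |B1| + |B2| + |B3| + |I ((sob m).Γ l l)| with hΛ₁
  refine ⟨Λ₁, ?_⟩
  filter_upwards [hA.fam, hU, hF] with n h1 h2 h3
  have hfam := h1 l hl
  have hreg : (sob m).Reg (PA.en n) 0 1 (φ l n) (u n) :=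
    h0 M m (sob m) K P hC hB hP _ _ _ _ _ hfam.pair
  have a0 := abs_nonneg Λ₀
  have a1 := abs_nonneg B1
  have a2 := abs_nonneg B2
  have a3 := abs_nonneg B3
  have a4 := abs_nonneg (I ((sob m).Γ l l))
  refine ⟨hreg, en_le n, hs.1, reg_mono hreg hs.1.le hs.2 le_rfl,
    Bd.mono (Bd_of hs.1 hs.2 (en_pos n) (en_le n) hN hC0 hR h2 h3) (en_pos n)
      (by linarith [le_abs_self Λ₀]), hfam.fin, hl, ?_, ?_⟩
  · filter_upwards [hB1, hB2, hB3] with x b1 b2 b3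
    exact ⟨by linarith [le_abs_self B1], by linarith [le_abs_self B2, le_abs_self ((sob m).Γ l l x)],
      by linarith [le_abs_self B3]⟩
  · linarith [le_abs_self (I ((sob m).Γ l l))]

end metric

end Vale.Agent.P233.H329
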