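import Vale.Agent.P233.Gig.IfB

/-! P233, part B: the Riccati inequality `Blk_B6` from the blocks B0r, B6a, B6t, B6x. -/

set_option linter.all false

open MeasureTheory Filter Topology Set
open scoped ENNReal NNReal InnerProductSpace

universe u v

namespace Vale.Agent.P233.H329

open Vale.Agent.P233

section lin

variable {M : Type u} [MeasurableSpace M] {m : Measure M} {C : Calc m}
variable {F G h w : M →ₘ[m] ℝ}

theorem top_of_sub_one (hw : w - 1 ∈ C.A) : MemLp w ∞ m := by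
  have : w = (w - 1) + 1 := by ring
  rw [this]; exact mem_add hw.2 mem_top_one

variable (hC : IsGamma C) {K : ℝ} (hB : C.BEi K)
include hC hB

theorem wHc_mem1 (hF : F ∈ C.W) (hh : h ∈ C.TestI) (hw : w - 1 ∈ C.A) :
    MemLp (C.Γ F h * (w * C.lap h + C.Γ h (w - 1)) : M →ₘ[m] ℝ) 1 m := by
  have hD := hC.toIsDir
  have hhW := hC.tW hh.1
  have h1 : MemLp (C.Γ F h) 2 m := by
    rw [hC.symm _ hF _ hhW]
    exact hD.Γ_mem2 hhW (hC.test_Γ_top hh.1) hF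
  refine mem_mul_22 h1 (mem_add (mem_mul_top (top_of_sub_one hw)
    (hC.memLp _ (hC.test_lap_mem hh.1))) ?_)
  exact hD.Γ_mem2 hhW (hC.test_Γ_top hh.1) hw.1

theorem wHc_mem2 (hF : F ∈ C.W) (hh : h ∈ C.TestI) (hw : w - 1 ∈ C.A) :
    MemLp (w * C.Γ F (C.Γ h h) : M →ₘ[m] ℝ) 1 m :=
  mem_mul_top (top_of_sub_one hw) (hC.toIsDir.Γ_mem1 hF (hC.Γ_mem hB hh.1 hh.1).1)

theorem wHc_add (hF : F ∈ C.W) (hG : G ∈ C.W) (hh : h ∈ C.TestI) (hw : w - 1 ∈ C.A) :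
    C.wHc (F + G) h w = C.wHc F h w + C.wHc G h w := by
  have hhW := hC.tW hh.1
  have hΓW := (hC.Γ_mem hB hh.1 hh.1).1
  unfold Calc.wHc
  rw [hC.add_left _ hF _ hG _ hhW, hC.add_left _ hF _ hG _ hΓW, add_mul (C.Γ F h) (C.Γ G h),
    mul_add w (C.Γ F (C.Γ h h)),
    I_add (wHc_mem1 hC hB hF hh hw) (wHc_mem1 hC hB hG hh hw),
    I_add (wHc_mem2 hC hB hF hh hw) (wHc_mem2 hC hB hG hh hw)]
  ring

theorem wHc_smul (c : ℝ) (hF : F ∈ C.W) (hh : h ∈ C.TestI) (hw : w - 1 ∈ C.A) :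
    C.wHc (c • F) h w = c * C.wHc F h w := by
  have hhW := hC.tW hh.1
  have hΓW := (hC.Γ_mem hB hh.1 hh.1).1
  unfold Calc.wHc
  rw [hC.smul_left _ _ hF _ hhW, hC.smul_left _ _ hF _ hΓW, smul_mul_assoc, mul_smul_comm,
    I_smul, I_smul]
  ring

end lin

theorem blk_B6_of (h0r : Blk_B0r.{u}) (h6a : Blk_B6a.{u, v}) (h6t : Blk_B6t.{u, v})
    (h6x : Blk_B6x.{u, v}) : Blk_B6.{u, v} := by
  intro M _ m _ C K N s s' Λ κ E _ _ _ Gr U D hCt hSec hs hss' hs'1 h hh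
  have hC := hCt.gam
  have hB : C.BEi K := hC.bei hCt.hN hCt.be
  have hD := hC.toIsDir
  obtain ⟨err, herr, hx⟩ := h6x M m C K N s s' Λ κ E Gr U D hCt hs hss' hs'1 h hh
  refine ⟨err, herr, fun ε l φ u hL => ?_⟩
  obtain ⟨r, hr1, hr2, hr3⟩ := hx ε l φ u hL
  have hR := hL.reg
  obtain ⟨hd, hS1, hFRc⟩ := h6t M m C K E Gr U hC hB hCt.grad hCt.hu ε s 1 φ u hR h hh
  obtain ⟨q1, -, -, -, -⟩ := h0r M m C K hC hB ε s 1 φ u hR
  have hsub : Icc s' 1 ⊆ Icc s 1 := Icc_subset_Icc hss'.le le_rfl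
  have hFR : ContinuousOn (C.FR U κ ε φ u h) (Icc s' 1) := (hFRc κ).mono hsub
  refine ⟨hFR, fun t₁ t₂ h1 h12 h2 => ?_⟩
  -- the static inequality
  have key : ∀ t ∈ Ico s' 1, C.S1 ε φ u h t ≤ C.FR U κ ε φ u h t + r t := by
    intro t ht
    have htI : t ∈ Icc s 1 := hsub (Ico_subset_Icc_self ht)
    obtain ⟨hLT, hθT, hρT, hΓρ, -⟩ := q1 t htI
    set L := LL ε φ u t with hLdef
    set θ := th φ u t with hθdef
    set ρ := rh ε φ u t with hρdef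
    have hρA : ρ - 1 ∈ C.A := hC.test_A hρT.1
    have hρ0 : 0 ≤ ρ := by
      rw [nonneg_iff_ae, hρdef]
      unfold rh ex
      filter_upwards [AEEqFun.coeFn_comp Real.exp Real.continuous_exp (ε⁻¹ • (φ t - u t))] with x hx
      rw [hx]
      exact (Real.exp_pos _).le
    have e1 := h6a M m C K E Gr U hC hB hCt.grad hCt.hu h hh θ hθT ρ hρT
    have e2 := h6a M m C K E Gr U hC hB hCt.grad hCt.hu h hh L hLT ρ hρT
    have s1 := hSec h hh θ hθT ρ hρT hρ0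
    have s2 := hSec h hh L hLT ρ hρT hρ0
    have hΓθ : C.Γ θ θ ∈ C.W := (hC.Γ_mem hB hθT.1 hθT.1).1
    have hΓL : C.Γ L L ∈ C.W := (hC.Γ_mem hB hLT.1 hLT.1).1
    have hlL : C.lap L ∈ C.W := hC.test_lap_mem hLT.1
    have w1 : C.wHc (-((2 : ℝ)⁻¹ • C.Γ θ θ) -
        (ε ^ 2 / 8) • ((2 : ℝ) • C.lap L + C.Γ L L)) h ρ
        = -C.wHc ((2 : ℝ)⁻¹ • C.Γ θ θ) h ρ - ε ^ 2 / 4 * C.wHc (C.lap L) h ρ
          - ε ^ 2 / 4 * C.wHc ((2 : ℝ)⁻¹ • C.Γ L L) h ρ := by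
      have : (-((2 : ℝ)⁻¹ • C.Γ θ θ) - (ε ^ 2 / 8) • ((2 : ℝ) • C.lap L + C.Γ L L) : M →ₘ[m] ℝ)
          = (-1 : ℝ) • ((2 : ℝ)⁻¹ • C.Γ θ θ) + ((-(ε ^ 2 / 4)) • C.lap L
            + (-(ε ^ 2 / 4)) • ((2 : ℝ)⁻¹ • C.Γ L L)) := by
        module
      have hA1 : (2 : ℝ)⁻¹ • C.Γ θ θ ∈ C.W := hC.smul_mem _ _ hΓθ
      have hA2 : (2 : ℝ)⁻¹ • C.Γ L L ∈ C.W := hC.smul_mem _ _ hΓL
      rw [this, wHc_add hC hB (hC.smul_mem _ _ hA1)
        (hC.add_mem _ (hC.smul_mem _ _ hlL) _ (hC.smul_mem _ _ hA2)) hh hρA,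
        wHc_add hC hB (hC.smul_mem _ _ hlL) (hC.smul_mem _ _ hA2) hh hρA,
        wHc_smul hC hB _ hA1 hh hρA, wHc_smul hC hB _ hlL hh hρA, wHc_smul hC hB _ hA2 hh hρA]
      ring
    have g1 : C.Γ L (ρ - 1) = ρ * C.Γ L L := by
      rw [hC.symm _ (hC.tW hLT.1) _ hρA.1]
      exact hΓρ L (hC.tW hLT.1)
    have g2 : (C.Γ L (ρ - 1) + ρ * C.lap L) * C.hess L h h
        = ρ * (C.lap L + C.Γ L L) * C.hess L h h := by
      rw [g1]; ring
    rw [g2] at e2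
    have hErr := (hr2 t ht).2
    unfold Calc.Er Calc.Kt at hErr
    unfold Calc.S1 Calc.FR
    rw [← hLdef, ← hθdef, ← hρdef] at *
    rw [w1]
    have hε2 : 0 ≤ ε ^ 2 / 4 := by positivity
    have s2' := mul_le_mul_of_nonneg_left s2 hε2
    nlinarith [s1, s2', hErr, e1, e2]
  -- integration
  have hcont : ContinuousOn (C.SS ε φ u h) (Icc t₁ t₂) := fun t ht =>
    ((hd t ⟨hss'.le.trans (h1.trans ht.1), ht.2.trans h2⟩).continuousWithinAt).mono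
      (Icc_subset_Icc (hss'.le.trans h1) h2)
  have hder : ∀ t ∈ Ioo t₁ t₂, HasDerivAt (C.SS ε φ u h) (C.S1 ε φ u h t) t := fun t ht =>
    (hd t ⟨hss'.le.trans (h1.trans ht.1.le), ht.2.le.trans h2⟩).hasDerivAt
      (Icc_mem_nhds (by linarith [ht.1]) (by linarith [ht.2]))
  have hsub2 : Icc t₁ t₂ ⊆ Icc s 1 := Icc_subset_Icc (hss'.le.trans h1) h2
  have hint1 : IntervalIntegrable (C.S1 ε φ u h) volume t₁ t₂ :=
    ContinuousOn.intervalIntegrable_of_Icc h12 (hS1.mono hsub2)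
  have hint2 : IntervalIntegrable (C.FR U κ ε φ u h) volume t₁ t₂ :=
    ContinuousOn.intervalIntegrable_of_Icc h12 (hFR.mono (Icc_subset_Icc h1 h2))
  have hint3 : IntervalIntegrable r volume t₁ t₂ := by
    refine hr1.mono_set ?_
    rw [uIcc_of_le h12, uIcc_of_le hs'1.le]
    exact Icc_subset_Icc h1 h2
  have hFTC := intervalIntegral.integral_eq_sub_of_hasDerivAt_of_le h12 hcont hder hint1
  rw [← hFTC]
  have hle : ∫ t in t₁..t₂, C.S1 ε φ u h t ≤ ∫ t in t₁..t₂, (C.FR U κ ε φ u h t + r t) := by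
    refine intervalIntegral.integral_mono_on_of_le_Ioo h12 hint1 (hint2.add hint3) ?_
    intro t ht
    exact key t ⟨h1.trans ht.1.le, ht.2.trans_le h2⟩
  rw [intervalIntegral.integral_add hint2 hint3] at hle
  have hr4 : ∫ t in t₁..t₂, r t ≤ ∫ t in s'..1, r t := by
    refine intervalIntegral.integral_mono_interval h1 h12 h2 ?_ hr1
    have hne : ∀ᵐ t ∂(volume : Measure ℝ), t ≠ 1 := by
      simp [ae_iff, measure_singleton]
    refine (ae_restrict_iff' measurableSet_Ioc).2 ?_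
    filter_upwards [hne] with t ht1 ht
    exact (hr2 t ⟨ht.1.le, lt_of_le_of_ne ht.2 ht1⟩).1
  linarith

end Vale.Agent.P233.H329
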