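import Vale.Agent.P233.Gig.IfC
import Vale.Agent.P233.H329.AsmB1
import Vale.Agent.P233.H329.BlkB6

/-! P233, assembly of part B, step 2: the fields of `PC.LevB`. -/

set_option linter.all false

open MeasureTheory Filter Topology Set
open scoped ENNReal NNReal InnerProductSpace

universe u v

namespace Vale.Agent.P233.H329

open Vale.Agent.P233
open Vale.Agent.P233.PC (rn tn wn LevB CHyp)
open Vale.Agent.P233.PA (en OutA)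

section abstract

variable {M : Type u} [MeasurableSpace M] {m : Measure M} {C : Calc m}

theorem LvB.mono {ε s Λ Λ' : ℝ} {l : M →ₘ[m] ℝ} {φ u : ℝ → M →ₘ[m] ℝ}
    (h : LvB C ε s Λ l φ u) (hΛ : Λ ≤ Λ') : LvB C ε s Λ' l φ u := by
  refine ⟨h.hε1, h.hs, h.reg, Bd.mono h.bd h.reg.hε hΛ, h.fin, h.l_mem, ?_, h.l_en.trans hΛ⟩
  filter_upwards [h.l_bd] with x hx
  exact ⟨hx.1.trans hΛ, hx.2.1.trans hΛ, hx.2.2.trans hΛ⟩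

end abstract

section

variable {M : Type u} [MetricSpace M] [MeasurableSpace M]
  {m : Measure M} [SigmaFinite m]
variable {E : Type} [NormedAddCommGroup E] [InnerProductSpace ℝ E] [CompleteSpace E]
variable {Gr : (M →ₘ[m] ℝ) → M → E} {V : (M →ₘ[m] ℝ) → (M →ₘ[m] ℝ) → M → E}
variable {D : (M →ₘ[m] ℝ) → (M →ₘ[m] ℝ)} {K N κ s₀ C₀ : ℝ} {p : M}
variable {P : ℝ → (M →ₘ[m] ℝ) → (M →ₘ[m] ℝ)}
variable {u : ℕ → ℝ → M →ₘ[m] ℝ} {φ : (M →ₘ[m] ℝ) → ℕ → ℝ → M →ₘ[m] ℝ}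

/-- the standing data of the assembly -/
structure AsB (m : Measure M) (K N : ℝ) (P : ℝ → (M →ₘ[m] ℝ) → (M →ₘ[m] ℝ)) (p : M) (s₀ C₀ : ℝ)
    (Gr : (M →ₘ[m] ℝ) → M → E) (V : (M →ₘ[m] ℝ) → (M →ₘ[m] ℝ) → M → E)
    (D : (M →ₘ[m] ℝ) → (M →ₘ[m] ℝ)) (u : ℕ → ℝ → M →ₘ[m] ℝ)
    (φ : (M →ₘ[m] ℝ) → ℕ → ℝ → M →ₘ[m] ℝ) : Prop where
  ct : CtB (sob m) K N Gr V D
  heat : Heat (sob m) K P
  hC0 : 0 < C₀
  out : OutA m K N P p s₀ C₀ u φ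

variable (h : AsB m K N P p s₀ C₀ Gr V D u φ)
include h

theorem AsB.bei : (sob m).BEi K := h.ct.gam.bei h.ct.hN h.ct.be

theorem AsB.exists (h0 : Blk_B0.{u}) {l : M →ₘ[m] ℝ} (hl : l ∈ (sob m).TestI) {s : ℝ}
    (hs : s ∈ Ioo (0 : ℝ) 1) :
    ∃ Λ : ℝ, ∀ᶠ n in atTop, (sob m).Reg (en n) 0 1 (φ l n) (u n) ∧
      LvB (sob m) (en n) s Λ l (φ l n) (u n) :=
  exists_LvB h0 h.ct.hN h.ct.gam h.bei h.heat h.hC0 h.out hl hs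

theorem AsB.reg (h0 : Blk_B0.{u}) : ∀ l ∈ (sob m).TestI, ∀ᶠ n in atTop,
    (sob m).Reg (en n) 0 1 (φ l n) (u n) := by
  intro l hl
  obtain ⟨Λ, hΛ⟩ := h.exists h0 hl (s := 1 / 2) ⟨by norm_num, by norm_num⟩
  filter_upwards [hΛ] with n hn using hn.1

theorem AsB.zero : (0 : M →ₘ[m] ℝ) ∈ (sob m).TestI := h.ct.gam.testI_zero h.bei

theorem AsB.mem (h0 : Blk_B0.{u}) (h0r : Blk_B0r.{u}) (h8 : Blk_B8a.{u}) :
    ∀ l ∈ (sob m).TestI, ∀ᶠ n in atTop, ∀ t ∈ Icc (0 : ℝ) 1,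
    LL (en n) (φ l n) (u n) t ∈ (sob m).TestI ∧ tn u φ l n t ∈ (sob m).TestI ∧
      rn u φ l n t - 1 ∈ (sob m).TestI ∧ wn φ l n t - 1 ∈ (sob m).TestI ∧
      rn u φ l n t = wn φ l n t * rn u φ 0 n t := by
  intro l hl
  filter_upwards [h.reg h0 l hl, h.reg h0 0 h.zero] with n h1 h2 t ht
  obtain ⟨q1, -, -, -, -⟩ := h0r M m (sob m) K h.ct.gam h.bei (en n) 0 1 (φ l n) (u n) h1
  obtain ⟨c0, -, -⟩ := h8 M m (sob m) K h.ct.gam h.bei (en n) 0 1 (φ 0 n) (φ l n) (u n) h2 h1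
  exact ⟨(q1 t ht).1, (q1 t ht).2.1, (q1 t ht).2.2.1, (c0 t ht).1, (c0 t ht).2⟩

/-- continuity in time -/
theorem AsB.cont (h0 : Blk_B0.{u}) (h0r : Blk_B0r.{u}) : ∀ l ∈ (sob m).TestI, ∀ᶠ n in atTop,
    (∃ B : ℝ, ∀ t ∈ Icc (0 : ℝ) 1, ∀ᵐ x ∂m, |rh (en n) (φ l n) (u n) t x| ≤ B) ∧
    (∀ s ∈ Icc (0 : ℝ) 1, ∀ t ∈ Icc (0 : ℝ) 1,
      MemLp (rh (en n) (φ l n) (u n) s - rh (en n) (φ l n) (u n) t : M →ₘ[m] ℝ) 2 m) ∧
    (∀ t ∈ Icc (0 : ℝ) 1, Tendsto (fun s => I ((rh (en n) (φ l n) (u n) s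
      - rh (en n) (φ l n) (u n) t) ^ 2)) (𝓝[Icc 0 1] t) (𝓝 0)) := by
  intro l hl
  have hC := h.ct.gam
  have hD := hC.toIsDir
  filter_upwards [h.reg h0 l hl] with n hn
  obtain ⟨q1, q2, -, -, B, hB⟩ := h0r M m (sob m) K hC h.bei (en n) 0 1 (φ l n) (u n) hn
  have hW : ∀ s ∈ Icc (0 : ℝ) 1, ∀ t ∈ Icc (0 : ℝ) 1,
      rh (en n) (φ l n) (u n) s - rh (en n) (φ l n) (u n) t ∈ (sob m).W := by
    intro s hs t ht
    have e : rh (en n) (φ l n) (u n) s - rh (en n) (φ l n) (u n) t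
        = (rh (en n) (φ l n) (u n) s - 1) - (rh (en n) (φ l n) (u n) t - 1) := by ring
    rw [e]
    exact hD.sub_mem (hC.tW (q1 s hs).2.2.1.1) (hC.tW (q1 t ht).2.2.1.1)
  refine ⟨⟨B, fun t ht => ?_⟩, fun s hs t ht => hC.memLp _ (hW s hs t ht), fun t ht => ?_⟩
  · filter_upwards [hB t ht, AEEqFun.coeFn_comp Real.exp Real.continuous_exp
      ((en n)⁻¹ • (φ l n t - u n t))] with x hx hx2
    have h3 : rh (en n) (φ l n) (u n) t x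
      = Real.exp (((en n)⁻¹ • (φ l n t - u n t) : M →ₘ[m] ℝ) x) := hx2
    rw [abs_of_pos (by rw [h3]; exact Real.exp_pos _)]
    exact hx.2.1
  · obtain ⟨-, hθT, hρT, -, -⟩ := q1 t ht
    have hρA := hC.test_A hρT.1
    have hlA := hC.testI_lap_A h.bei hθT
    have hm' : -(rh (en n) (φ l n) (u n) t * (sob m).lap (th (φ l n) (u n) t)
        + (sob m).Γ (th (φ l n) (u n) t) (rh (en n) (φ l n) (u n) t - 1)) ∈ (sob m).W := by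
      have e : -(rh (en n) (φ l n) (u n) t * (sob m).lap (th (φ l n) (u n) t)
        + (sob m).Γ (th (φ l n) (u n) t) (rh (en n) (φ l n) (u n) t - 1))
        = (-1 : ℝ) • (((rh (en n) (φ l n) (u n) t - 1) * (sob m).lap (th (φ l n) (u n) t)
          + (sob m).lap (th (φ l n) (u n) t))
          + (sob m).Γ (th (φ l n) (u n) t) (rh (en n) (φ l n) (u n) t - 1)) := by
        rw [neg_one_smul]; ring
      rw [e]
      exact hC.smul_mem _ _ (hC.add_mem _ (hC.add_mem _ (hD.mul_mem_A hρA hlA).1 _ hlA.1) _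
        (hC.Γ_mem h.bei hθT.1 hρT.1).1)
    exact (IsDir.DW_DL2 hD (DW_of_derW (q2 t ht) (fun r hr => hW r hr t ht) hm')).cont

theorem AsB.fld (h0 : Blk_B0.{u}) (h0r : Blk_B0r.{u}) (h0c : Blk_B0c.{u, 0}) :
    ∀ l ∈ (sob m).TestI, ∀ h ∈ (sob m).TestI, ∀ᶠ n in atTop, ∀ t ∈ Icc (0 : ℝ) 1,
    Tendsto (fun s => eLpNorm (fun x => V (tn u φ l n s) h x - V (tn u φ l n t) h x) 2 m)
      (𝓝[Icc 0 1] t) (𝓝 0) ∧
    Tendsto (fun s => eLpNorm (fun x => V h (tn u φ l n s) x - V h (tn u φ l n t) x) 2 m)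
      (𝓝[Icc 0 1] t) (𝓝 0) ∧
    Tendsto (fun s => I ((rn u φ l n s - rn u φ l n t) ^ 2)) (𝓝[Icc 0 1] t) (𝓝 0) := by
  intro l hl g hg
  filter_upwards [h.reg h0 l hl, h.cont h0 h0r l hl] with n hn hc t ht
  have hc0 := h0c M m (sob m) K E Gr V h.ct.gam h.bei h.ct.grad h.ct.hu (en n) 0 1 (φ l n) (u n)
    hn g hg t ht
  exact ⟨hc0.1, hc0.2.1, hc.2.2 t ht⟩

theorem AsB.b2 (h0 : Blk_B0.{u}) (h2 : Blk_B2.{u, 0}) : ∀ l ∈ (sob m).TestI,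
    ∀ s ∈ Ioo (0 : ℝ) 1, ∃ c : ℝ, ∀ᶠ n in atTop, ∀ t ∈ Icc s 1,
    en n * (sob m).EV (en n) (φ l n) (u n) t ≤ c ∧
    |(sob m).EA (en n) (φ l n) (u n) t - (sob m).EB (en n) (φ l n) (u n) t| ≤ c * en n ∧
    (sob m).EA (en n) (φ l n) (u n) t ≤ c ∧
    |(sob m).EA (en n) (φ l n) (u n) t - (sob m).EA (en n) (φ l n) (u n) 1| ≤ c * en n := by
  intro l hl s hs
  have hs2 : s / 2 ∈ Ioo (0 : ℝ) 1 := ⟨by linarith [hs.1], by linarith [hs.1, hs.2]⟩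
  obtain ⟨Λ, hΛ⟩ := h.exists h0 hl hs2
  obtain ⟨c, hc⟩ := h2 K N (s / 2) s Λ hs2.1 (by linarith [hs.1]) hs.2
  refine ⟨c, ?_⟩
  filter_upwards [hΛ] with n hn t ht
  exact hc M m (sob m) E Gr V D h.ct (en n) l (φ l n) (u n) hn.2 t ht

theorem AsB.b3 (h0 : Blk_B0.{u}) (h3 : Blk_B3.{u, 0}) :
    ∀ l ∈ (sob m).TestI, ∀ s ∈ Ioo (0 : ℝ) 1, ∃ c : ℝ, ∀ᶠ n in atTop, ∃ e : ℝ → ℝ,
    ContinuousOn e (Icc s 1) ∧ ∫ t in s..1, e t ≤ c ∧ ∀ t ∈ Icc s 1,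
      I (rn u φ l n t * D (tn u φ l n t) ^ 2)
        + en n ^ 2 * I (rn u φ l n t * D (LL (en n) (φ l n) (u n) t) ^ 2)
        + en n ^ 2 * I (rn u φ l n t * (sob m).lap (LL (en n) (φ l n) (u n) t) ^ 2) ≤ e t := by
  intro l hl s hs
  have hs2 : s / 2 ∈ Ioo (0 : ℝ) 1 := ⟨by linarith [hs.1], by linarith [hs.1, hs.2]⟩
  obtain ⟨Λ, hΛ⟩ := h.exists h0 hl hs2
  obtain ⟨c, hc⟩ := h3 K N (s / 2) s Λ hs2.1 (by linarith [hs.1]) hs.2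
  refine ⟨c, ?_⟩
  filter_upwards [hΛ] with n hn
  exact hc M m (sob m) E Gr V D h.ct (en n) l (φ l n) (u n) hn.2

theorem AsB.b4 (h0 : Blk_B0.{u}) (h4 : Blk_B4.{u, 0}) :
    ∀ l ∈ (sob m).TestI, ∀ s ∈ Ioo (0 : ℝ) 1, ∃ c : ℝ, ∀ᶠ n in atTop,
    ∫ t in s..1, en n ^ 2 * (sob m).EV4 (en n) (φ l n) (u n) t ≤ c := by
  intro l hl s hs
  have hs2 : s / 2 ∈ Ioo (0 : ℝ) 1 := ⟨by linarith [hs.1], by linarith [hs.1, hs.2]⟩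
  obtain ⟨Λ, hΛ⟩ := h.exists h0 hl hs2
  obtain ⟨c, hc⟩ := h4 K N (s / 2) s Λ hs2.1 (by linarith [hs.1]) hs.2
  refine ⟨c, ?_⟩
  filter_upwards [hΛ] with n hn
  exact hc M m (sob m) E Gr V D h.ct (en n) l (φ l n) (u n) hn.2

theorem AsB.b6 (h0 : Blk_B0.{u}) (h6t : Blk_B6t.{u, 0}) (h6 : Blk_B6.{u, 0})
    (hS : (sob m).Sec V κ) :
    ∀ l ∈ (sob m).TestI, ∀ h ∈ (sob m).TestI, ∀ s ∈ Ioo (0 : ℝ) 1, ∃ e : ℕ → ℝ,
    Tendsto e atTop (𝓝 0) ∧ ∀ᶠ n in atTop,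
      ContinuousOn ((sob m).FR V κ (en n) (φ l n) (u n) h) (Icc s 1) ∧
      ContinuousOn ((sob m).SS (en n) (φ l n) (u n) h) (Icc s 1) ∧
      ∀ a b, s ≤ a → a ≤ b → b ≤ 1 →
        (sob m).SS (en n) (φ l n) (u n) h b - (sob m).SS (en n) (φ l n) (u n) h a
          ≤ (∫ t in a..b, (sob m).FR V κ (en n) (φ l n) (u n) h t) + e n := by
  intro l hl g hg s hs
  have hs2 : s / 2 ∈ Ioo (0 : ℝ) 1 := ⟨by linarith [hs.1], by linarith [hs.1, hs.2]⟩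
  obtain ⟨Λ, hΛ⟩ := h.exists h0 hl hs2
  obtain ⟨err, he1, he2⟩ := h6 M m (sob m) K N (s / 2) s Λ κ E Gr V D h.ct hS hs2.1
    (by linarith [hs.1]) hs.2 g hg
  refine ⟨fun n => err (en n), he1.comp en_tendsto, ?_⟩
  filter_upwards [hΛ] with n hn
  obtain ⟨t1, -, -⟩ := h6t M m (sob m) K E Gr V h.ct.gam h.bei h.ct.grad h.ct.hu (en n) 0 1
    (φ l n) (u n) hn.1 g hg
  have h1 := he2 (en n) l (φ l n) (u n) hn.2
  have hsub : Icc s 1 ⊆ Icc (0 : ℝ) 1 := Icc_subset_Icc hs.1.le le_rfl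
  exact ⟨h1.1, fun t ht => ((t1 t (hsub ht)).continuousWithinAt).mono hsub, h1.2⟩

theorem AsB.b7 (h0 : Blk_B0.{u}) (h7 : Blk_B7.{u}) (h7x : Blk_B7x.{u, 0}) :
    ∀ l ∈ (sob m).TestI, ∀ b ∈ (sob m).Test, ∀ s ∈ Ioo (0 : ℝ) 1, ∃ e : ℕ → ℝ,
    Tendsto e atTop (𝓝 0) ∧ ∀ᶠ n in atTop,
      ContinuousOn (fun t => I (rn u φ l n t * (sob m).hess b (tn u φ l n t) (tn u φ l n t)))
        (Icc s 1) ∧ ∀ a c, s ≤ a → a ≤ c → c ≤ 1 →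
      |I (rn u φ l n c * (sob m).Γ b (tn u φ l n c)) - I (rn u φ l n a * (sob m).Γ b (tn u φ l n a))
        - ∫ t in a..c, I (rn u φ l n t * (sob m).hess b (tn u φ l n t) (tn u φ l n t))| ≤ e n := by
  intro l hl g hg s hs
  have hs2 : s / 2 ∈ Ioo (0 : ℝ) 1 := ⟨by linarith [hs.1], by linarith [hs.1, hs.2]⟩
  obtain ⟨Λ, hΛ⟩ := h.exists h0 hl hs2
  obtain ⟨err, he1, he2⟩ := h7x M m (sob m) K N (s / 2) s Λ E Gr V D h.ct hs2.1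
    (by linarith [hs.1]) hs.2 g hg
  refine ⟨fun n => err (en n), he1.comp en_tendsto, ?_⟩
  filter_upwards [hΛ] with n hn
  have hc := (h7 M m (sob m) K h.ct.gam h.bei (en n) 0 1 (φ l n) (u n) hn.1 g hg).2.1
  exact ⟨hc.mono (Icc_subset_Icc hs.1.le le_rfl), he2 (en n) l (φ l n) (u n) hn.2⟩

omit h in
theorem ex_zero' : (ex (0 : M →ₘ[m] ℝ)) = 1 := by
  unfold ex
  rw [eq_iff_ae]
  filter_upwards [AEEqFun.coeFn_comp Real.exp Real.continuous_exp (0 : M →ₘ[m] ℝ),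
    zero_ae (M := M) (m := m), one_ae (M := M) (m := m)] with x b1 b2 b3
  rw [b1, b3]
  simp [b2]

theorem AsB.b8 (h0 : Blk_B0.{u}) (h8 : Blk_B8a.{u}) : ∀ l ∈ (sob m).TestI, ∀ᶠ n in atTop,
    ContinuousOn (fun t => I (rn u φ 0 n t * (sob m).Γ (wn φ l n t - 1) (wn φ l n t - 1)))
      (Icc 0 1) ∧ ∀ s ∈ Icc (0 : ℝ) 1,
    I ((ex l - 1) ^ 2) - I (rn u φ 0 n s * (wn φ l n s - 1) ^ 2)
      = en n * ∫ t in s..1, I (rn u φ 0 n t * (sob m).Γ (wn φ l n t - 1) (wn φ l n t - 1)) := by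
  intro l hl
  have hC := h.ct.gam
  obtain ⟨Λ, hΛ⟩ := h.exists h0 hl (s := 1 / 2) ⟨by norm_num, by norm_num⟩
  obtain ⟨Λ', hΛ'⟩ := h.exists h0 h.zero (s := 1 / 2) ⟨by norm_num, by norm_num⟩
  filter_upwards [hΛ, hΛ'] with n hn hn'
  obtain ⟨-, c1, c2⟩ := h8 M m (sob m) K hC h.bei (en n) 0 1 (φ 0 n) (φ l n) (u n) hn'.1 hn.1
  refine ⟨c2, fun s hs => ?_⟩
  have hε := en_pos n
  have hfin : rh (en n) (φ 0 n) (u n) 1 = 1 := by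
    have e1 : (en n)⁻¹ • (φ 0 n 1 - u n 1) = (0 : M →ₘ[m] ℝ) := by
      rw [hn'.2.fin, smul_zero, add_zero, sub_self, smul_zero]
    unfold rh
    rw [e1, ex_zero']
  have hfin2 : rh (en n) (φ l n) (φ 0 n) 1 = ex l := by
    have e1 : (en n)⁻¹ • (φ l n 1 - φ 0 n 1) = l := by
      rw [hn'.2.fin, hn.2.fin, smul_zero, add_zero, add_sub_cancel_left, smul_smul,
        inv_mul_cancel₀ hε.ne', one_smul]
    unfold rh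
    rw [e1]
  unfold rn wn
  have hle : s ≤ 1 := hs.2
  have hsub : Icc s 1 ⊆ Icc (0 : ℝ) 1 := Icc_subset_Icc hs.1 le_rfl
  have hFTC := intervalIntegral.integral_eq_sub_of_hasDerivAt_of_le hle
    (f := fun t => I (rh (en n) (φ 0 n) (u n) t *
      (rh (en n) (φ l n) (φ 0 n) t - 1) ^ 2))
    (f' := fun t => en n * I (rh (en n) (φ 0 n) (u n) t *
      (sob m).Γ (rh (en n) (φ l n) (φ 0 n) t - 1) (rh (en n) (φ l n) (φ 0 n) t - 1)))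
    (fun t ht => ((c1 t (hsub ht)).continuousWithinAt).mono hsub)
    (fun t ht => (c1 t (hsub (Ioo_subset_Icc_self ht))).hasDerivAt
      (Icc_mem_nhds (hs.1.trans_lt ht.1) ht.2))
    (ContinuousOn.intervalIntegrable_of_Icc hle ((continuousOn_const.mul c2).mono hsub))
  rw [intervalIntegral.integral_const_mul] at hFTC
  simp only [hfin, hfin2, one_mul] at hFTC
  exact hFTC.symm

theorem AsB.b8b (h0 : Blk_B0.{u}) (h8b : Blk_B8b.{u, 0}) :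
    ∀ l ∈ (sob m).TestI, ∀ h ∈ (sob m).TestI, ∀ β ∈ (sob m).TestI, ∀ s ∈ Ioo (0 : ℝ) 1,
    ∃ c : ℝ, ∀ᶠ n in atTop, ∀ t ∈ Icc s 1,
      |I (β * rn u φ l n t * ((sob m).hess (tn u φ l n t) h h - (sob m).hess (tn u φ 0 n t) h h))|
        ≤ c * √(en n * I (rn u φ 0 n t * (sob m).Γ (wn φ l n t - 1) (wn φ l n t - 1))) := by
  intro l hl g hg β hβ s hs
  have hs2 : s / 2 ∈ Ioo (0 : ℝ) 1 := ⟨by linarith [hs.1], by linarith [hs.1, hs.2]⟩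
  obtain ⟨Λ, hΛ⟩ := h.exists h0 hl hs2
  obtain ⟨Λ', hΛ'⟩ := h.exists h0 h.zero hs2
  obtain ⟨B1, hB1⟩ := mem_top_iff.1 (h.ct.gam.test_A hl.1).2
  have hD₁ := h.out.same l hl |B1| (abs_nonneg _)
    (by filter_upwards [hB1] with x hx using hx.trans (le_abs_self _))
  obtain ⟨c, hc⟩ := h8b M m (sob m) K N (s / 2) s (max (max Λ Λ') |B1|) E Gr V D h.ct hs2.1
    (by linarith [hs.1]) hs.2 g hg β hβ
  refine ⟨c, ?_⟩
  filter_upwards [hΛ, hΛ', hD₁] with n h1 h2 h3 t ht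
  refine hc (en n) 0 l (φ 0 n) (φ l n) (u n)
    (LvB.mono h2.2 ((le_max_right _ _).trans (le_max_left _ _)))
    (LvB.mono h1.2 ((le_max_left _ _).trans (le_max_left _ _))) (fun r hr => ?_) t ht
  filter_upwards [h3 r ⟨hs2.1.le.trans hr.1, hr.2⟩] with x hx
  exact hx.trans (mul_le_mul_of_nonneg_right (le_max_right _ _) (en_pos n).le)

end

/-- The blocks of part B that are used. -/
structure BlocksB : Prop where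
  b0 : Blk_B0.{u}
  b0r : Blk_B0r.{u}
  b0c : Blk_B0c.{u, 0}
  b2 : Blk_B2.{u, 0}
  b3 : Blk_B3.{u, 0}
  b4 : Blk_B4.{u, 0}
  b6t : Blk_B6t.{u, 0}
  b6 : Blk_B6.{u, 0}
  b7 : Blk_B7.{u}
  b7x : Blk_B7x.{u, 0}
  b8a : Blk_B8a.{u}
  b8b : Blk_B8b.{u, 0}

/-- ASSEMBLY OF PART B: output of part A ==> `PC.LevB`. -/
theorem asmB (hb : BlocksB.{u}) (M : Type u) [MetricSpace M] [CompleteSpace M]
    [SecondCountableTopology M] [MeasurableSpace M] [BorelSpace M] (m : Measure M) (K N κ : ℝ)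
    (P : ℝ → (M →ₘ[m] ℝ) → (M →ₘ[m] ℝ)) (p : M) (s₀ C₀ : ℝ) (hyp : CHyp M m K N P p s₀ C₀)
    (E : Type) [NormedAddCommGroup E] [InnerProductSpace ℝ E] [CompleteSpace E]
    (Gr : (M →ₘ[m] ℝ) → M → E) (V : (M →ₘ[m] ℝ) → (M →ₘ[m] ℝ) → M → E)
    (D : (M →ₘ[m] ℝ) → (M →ₘ[m] ℝ)) (hct : CtB (sob m) K N Gr V D) (hS : (sob m).Sec V κ)
    (u : ℕ → ℝ → M →ₘ[m] ℝ) (φ : (M →ₘ[m] ℝ) → ℕ → ℝ → M →ₘ[m] ℝ)
    (hA : OutA m K N P p s₀ C₀ u φ) : LevB m Gr V D κ u φ := by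
  haveI : SigmaFinite m := sigmaFinite_of_ball hyp.std.hfin
  have h : AsB m K N P p s₀ C₀ Gr V D u φ := ⟨hct, hyp.heat, hyp.hC0, hA⟩
  exact ⟨h.reg hb.b0, h.mem hb.b0 hb.b0r hb.b8a, h.fld hb.b0 hb.b0r hb.b0c, h.b2 hb.b0 hb.b2,
    h.b3 hb.b0 hb.b3, h.b4 hb.b0 hb.b4, h.b6 hb.b0 hb.b6t hb.b6 hS, h.b7 hb.b0 hb.b7 hb.b7x,
    h.b8 hb.b0 hb.b8a, h.b8b hb.b0 hb.b8b⟩

/-- the levels of part B (for part F2) -/
theorem lvB_of_outA (h0 : Blk_B0.{u}) (M : Type u) [MetricSpace M] [CompleteSpace M]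
    [SecondCountableTopology M] [MeasurableSpace M] [BorelSpace M] (m : Measure M) (K N : ℝ)
    (P : ℝ → (M →ₘ[m] ℝ) → (M →ₘ[m] ℝ)) (p : M) (s₀ C₀ : ℝ) (hyp : CHyp M m K N P p s₀ C₀)
    (hC : IsGamma (sob m)) (hN : 0 < N) (hBE : (sob m).BE K N)
    (u : ℕ → ℝ → M →ₘ[m] ℝ) (φ : (M →ₘ[m] ℝ) → ℕ → ℝ → M →ₘ[m] ℝ)
    (hA : OutA m K N P p s₀ C₀ u φ) : ∀ l ∈ (sob m).TestI, ∀ s ∈ Ioo (0 : ℝ) 1, ∃ Λ : ℝ,
      ∀ᶠ n in atTop, LvB (sob m) (en n) s Λ l (φ l n) (u n) := by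
  haveI : SigmaFinite m := sigmaFinite_of_ball hyp.std.hfin
  intro l hl s hs
  obtain ⟨Λ, hΛ⟩ := exists_LvB h0 hN hC (hC.bei hN hBE) hyp.heat hyp.hC0 hA hl hs
  exact ⟨Λ, by filter_upwards [hΛ] with n hn using hn.2⟩

end Vale.Agent.P233.H329
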