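import Vale.Agent.P233.H329.AsmB2
import Vale.Agent.P233.H329.BlkB6
import Vale.Agent.P233.H227.AsmBDef
import Vale.Agent.P233.H853.BlkB
import Vale.Agent.P233.H134.BlkB0c
import Vale.Agent.P233.H343.CloseB
import Vale.Agent.P233.H416.Err2
import Vale.Agent.P233.H748.BlkB0

/-! P233: part B, final assembly. -/

set_option linter.all false

universe u

namespace Vale.Agent.P233.H329

open Vale.Agent.P233.PC

theorem blk_B6x : Blk_B6x.{u, 0} :=
  H416.blk_B6x H853.blk_B6b H343.blk_B0r H343.blk_B1 H343.blk_B2 H343.blk_B3 H343.blk_B4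

theorem blk_B6 : Blk_B6.{u, 0} := blk_B6_of H343.blk_B0r H853.blk_B6a H343.blk_B6t blk_B6x

theorem blocksB : BlocksB.{u} :=
  ⟨H748.blk_B0, H343.blk_B0r, H134.blk_B0c, H343.blk_B2, H343.blk_B3, H343.blk_B4, H343.blk_B6t,
    blk_B6, H343.blk_B7, H343.blk_B7x, H343.blk_B8a, H343.blk_B8b⟩

/-- PART B: the output of part A gives the output of part B. -/
theorem blk_AsmB : Blk_AsmB.{u} := by
  intro M _ _ _ _ _ m K N κ P p s₀ C₀ hyp E _ _ _ Gr V D hct hS u φ hA
  exact asmB blocksB M m K N κ P p s₀ C₀ hyp E Gr V D hct hS u φ hA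

end Vale.Agent.P233.H329

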