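import Vale.Agent.P233.H329.BlocksB
import Vale.Agent.P233.H866.F2Asm2

/-! P233: the levels of part B as a block (for part F2). -/

set_option linter.all false

open MeasureTheory Filter Topology Set
open scoped ENNReal NNReal

universe u

namespace Vale.Agent.P233.H329

open Vale.Agent.P233.PC
open Vale.Agent.P233.PA (en OutA PotLim)

theorem blk_LvB : PF.Blk_LvB.{u} := by
  intro M _ _ _ _ _ m K N P q s₀ C₀ hyp u φ hA
  have hR := hyp.std.rcd
  have hC : IsGamma (sob m) := isGamma_sob hyp.std.hfin hR.quadratic hR.sobolev_to_lipschitz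
  exact lvB_of_outA H748.blk_B0 M m K N P q s₀ C₀ hyp hC hyp.std.hN hR.bochner u φ hA

end Vale.Agent.P233.H329
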